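import Mathlib
import Vale.Agent.Lib.P064.BoundedG

namespace Vale.Agent.Lib.P034

open Finset Vale.Agent.Lib.P064

open Classical in
lemma card_le_map_eq {n : ℕ} (H S : SimpleGraph (Fin n)) :
    (univ.filter (fun σ : Equiv.Perm (Fin n) => S ≤ H.map σ.toEmbedding)).card =
    (univ.filter (fun σ : Equiv.Perm (Fin n) => S.map σ.toEmbedding ≤ H)).card := by
  have key : ∀ (σ : Equiv.Perm (Fin n)) (x : Fin n), σ.symm ((Equiv.symm σ⁻¹) x) = x := by
    intro σ x
    rw [Equiv.Perm.inv_def, Equiv.symm_symm, Equiv.symm_apply_apply]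
  apply card_bij (fun σ _ => σ⁻¹)
  · intro σ hσ
    rw [mem_filter] at hσ ⊢
    refine ⟨mem_univ _, ?_⟩
    intro a b hab
    rw [map_perm_adj] at hab
    have h1 := hσ.2 hab
    rw [map_perm_adj, key, key] at h1
    exact h1
  · intro σ _ σ' _ h
    exact inv_injective h
  · intro τ hτ
    refine ⟨τ⁻¹, ?_, inv_inv τ⟩
    rw [mem_filter] at hτ ⊢
    refine ⟨mem_univ _, ?_⟩
    intro u w huw
    rw [map_perm_adj]
    apply hτ.2
    rw [map_perm_adj, key, key]
    exact huw

lemma copies_map {n : ℕ} (F : SimpleGraph (Fin n)) (σ : Equiv.Perm (Fin n)) :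
    copies (F.map σ.toEmbedding) = copies F := by
  unfold copies
  congr 1
  ext G
  constructor
  · rintro ⟨τ, rfl⟩
    exact ⟨τ * σ, map_perm_mul F τ σ⟩
  · rintro ⟨τ, rfl⟩
    refine ⟨τ * σ⁻¹, ?_⟩
    show (F.map σ.toEmbedding).map (τ * σ⁻¹).toEmbedding = F.map τ.toEmbedding
    rw [← map_perm_mul, inv_mul_cancel_right]

lemma subCopies_map {n : ℕ} (H F : SimpleGraph (Fin n)) (σ : Equiv.Perm (Fin n)) :
    subCopies H (F.map σ.toEmbedding) = subCopies H F := by
  unfold subCopies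
  congr 1
  ext G
  constructor
  · rintro ⟨hG, τ, rfl⟩
    exact ⟨hG, τ * σ, (map_perm_mul F τ σ).symm⟩
  · rintro ⟨hG, τ, rfl⟩
    refine ⟨hG, τ * σ⁻¹, ?_⟩
    rw [← map_perm_mul, inv_mul_cancel_right]

lemma small_of_bound {n : ℕ} (H : SimpleGraph (Fin n)) (K : ℝ) (hK : 0 < K)
    (hbound : ∀ p' : ℝ, 0 ≤ p' →
      (∀ F : SimpleGraph (Fin n), F ≤ H → 1 / 2 ≤ (copies F : ℝ) * p' ^ F.edgeSet.ncard) →
      ∀ F : SimpleGraph (Fin n), F ≤ H →
        (subCopies H F : ℝ) ≤ (copies F : ℝ) * (min 1 (K * p')) ^ F.edgeSet.ncard)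
    (p : ℝ) (hp : 0 ≤ p) (g : SimpleGraph (Fin n) → ℝ) (hg : ∀ S, 0 ≤ g S)
    (hcov : ∀ G : SimpleGraph (Fin n), (∃ σ : Equiv.Perm (Fin n), H.map σ.toEmbedding ≤ G) →
      1 ≤ ∑ S : SimpleGraph (Fin n), (Set.Iic G).indicator g S)
    (hcost : ∑ S : SimpleGraph (Fin n), g S * p ^ S.edgeSet.ncard ≤ 1 / 2) :
    ∃ C : Finset (SimpleGraph (Fin n)),
      (∀ G : SimpleGraph (Fin n), (∃ σ : Equiv.Perm (Fin n), H.map σ.toEmbedding ≤ G) →
        ∃ S ∈ C, S ≤ G) ∧
      ∑ S ∈ C, (p / K) ^ S.edgeSet.ncard ≤ 1 / 2 := by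
  classical
  by_cases hall : ∀ F : SimpleGraph (Fin n), F ≤ H →
      1 / 2 ≤ (copies F : ℝ) * (p / K) ^ F.edgeSet.ncard
  swap
  · simp only [not_forall] at hall
    obtain ⟨F', hF'H, hF'⟩ := hall
    rw [not_le] at hF'
    refine ⟨univ.image (fun σ : Equiv.Perm (Fin n) => F'.map σ.toEmbedding), ?_, ?_⟩
    · rintro G ⟨σ, hσ⟩
      exact ⟨F'.map σ.toEmbedding, mem_image_of_mem _ (mem_univ _),
        le_trans (SimpleGraph.map_monotone _ hF'H) hσ⟩
    · have h1 : ∀ S ∈ univ.image (fun σ : Equiv.Perm (Fin n) => F'.map σ.toEmbedding),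
          (p / K) ^ S.edgeSet.ncard = (p / K) ^ F'.edgeSet.ncard := by
        intro S hS
        rw [mem_image] at hS
        obtain ⟨σ, _, rfl⟩ := hS
        rw [ncard_edgeSet_map]
      rw [sum_congr rfl h1, sum_const, nsmul_eq_mul]
      have h2 : (univ.image (fun σ : Equiv.Perm (Fin n) => F'.map σ.toEmbedding)).card =
          copies F' := by
        unfold copies
        rw [← Set.ncard_coe_finset, coe_image, coe_univ, Set.image_univ]
      rw [h2]
      exact hF'.le
  · exfalso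
    set T' : SimpleGraph (Fin n) → ℕ := fun S =>
      (univ.filter (fun σ : Equiv.Perm (Fin n) => S ≤ H.map σ.toEmbedding)).card with hT'
    have hnf : (0:ℝ) < (n.factorial : ℝ) := by positivity
    have h1 : (n.factorial : ℝ) ≤ ∑ S : SimpleGraph (Fin n), g S * (T' S : ℝ) := by
      have h2 : ∀ σ : Equiv.Perm (Fin n), (1:ℝ) ≤ ∑ S : SimpleGraph (Fin n),
          (Set.Iic (H.map σ.toEmbedding)).indicator g S := fun σ => hcov _ ⟨σ, le_rfl⟩
      have h3 : ((n.factorial : ℕ) : ℝ) = ∑ _σ : Equiv.Perm (Fin n), (1:ℝ) := by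
        rw [sum_const, card_univ, Fintype.card_perm, Fintype.card_fin, nsmul_eq_mul, mul_one]
      rw [h3]
      calc ∑ _σ : Equiv.Perm (Fin n), (1:ℝ)
          ≤ ∑ σ : Equiv.Perm (Fin n), ∑ S : SimpleGraph (Fin n),
            (Set.Iic (H.map σ.toEmbedding)).indicator g S := sum_le_sum (fun σ _ => h2 σ)
        _ = ∑ S : SimpleGraph (Fin n), ∑ σ : Equiv.Perm (Fin n),
            (Set.Iic (H.map σ.toEmbedding)).indicator g S := sum_comm
        _ = ∑ S : SimpleGraph (Fin n), g S * (T' S : ℝ) := by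
            apply sum_congr rfl
            intro S _
            rw [hT']
            simp only [Set.indicator_apply, Set.mem_Iic]
            rw [← sum_filter, sum_const, nsmul_eq_mul, mul_comm]
    have h4 : ∃ S₀, 0 < T' S₀ ∧
        2 * (n.factorial : ℝ) * p ^ S₀.edgeSet.ncard ≤ (T' S₀ : ℝ) := by
      by_contra hcon
      have hcon' : ∀ S, 0 < T' S →
          (T' S : ℝ) < 2 * (n.factorial : ℝ) * p ^ S.edgeSet.ncard := by
        intro S hS
        by_contra h
        exact hcon ⟨S, hS, not_lt.mp h⟩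
      have h5 : ∀ S ∈ (univ : Finset (SimpleGraph (Fin n))), g S * (T' S : ℝ) ≤
          g S * (2 * (n.factorial : ℝ) * p ^ S.edgeSet.ncard) := by
        intro S _
        rcases Nat.eq_zero_or_pos (T' S) with h0 | hpos
        · rw [h0, Nat.cast_zero, mul_zero]; exact mul_nonneg (hg S) (by positivity)
        · exact mul_le_mul_of_nonneg_left (hcon' S hpos).le (hg S)
      have h6 : ∑ S : SimpleGraph (Fin n), g S * (2 * (n.factorial : ℝ) * p ^ S.edgeSet.ncard) ≤
          (n.factorial : ℝ) := by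
        have h61 : ∑ S : SimpleGraph (Fin n),
            g S * (2 * (n.factorial : ℝ) * p ^ S.edgeSet.ncard) =
            2 * (n.factorial : ℝ) * ∑ S : SimpleGraph (Fin n), g S * p ^ S.edgeSet.ncard := by
          rw [mul_sum]
          apply sum_congr rfl
          intro S _
          ring
        rw [h61]
        nlinarith
      have h7 : ∃ S₁ ∈ (univ : Finset (SimpleGraph (Fin n))), 0 < g S₁ * (T' S₁ : ℝ) := by
        by_contra h
        have h8 : ∑ S : SimpleGraph (Fin n), g S * (T' S : ℝ) ≤ 0 := by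
          apply sum_nonpos
          intro S hS
          by_contra h9
          exact h ⟨S, hS, not_le.mp h9⟩
        linarith
      obtain ⟨S₁, hS₁, hS₁pos⟩ := h7
      have hgS₁ : 0 < g S₁ := by
        rcases (hg S₁).lt_or_eq with h | h
        · exact h
        · rw [← h, zero_mul] at hS₁pos
          exact absurd hS₁pos (lt_irrefl _)
      have hTS₁ : 0 < T' S₁ := by
        rcases Nat.eq_zero_or_pos (T' S₁) with h0 | hpos
        · rw [h0, Nat.cast_zero, mul_zero] at hS₁pos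
          exact absurd hS₁pos (lt_irrefl _)
        · exact hpos
      have h9 : ∑ S : SimpleGraph (Fin n), g S * (T' S : ℝ) <
          ∑ S : SimpleGraph (Fin n), g S * (2 * (n.factorial : ℝ) * p ^ S.edgeSet.ncard) :=
        sum_lt_sum h5 ⟨S₁, hS₁, mul_lt_mul_of_pos_left (hcon' S₁ hTS₁) hgS₁⟩
      linarith
    obtain ⟨S₀, hT0, hS₀⟩ := h4
    have e0 : T' S₀ =
        (univ.filter (fun σ : Equiv.Perm (Fin n) => S₀.map σ.toEmbedding ≤ H)).card :=
      card_le_map_eq H S₀
    have e1 := subCopies_mul_stab H S₀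
    have e2 := copies_mul_stab S₀
    have hst := stab_pos S₀
    set stab := (univ.filter (fun τ : Equiv.Perm (Fin n) => S₀.map τ.toEmbedding = S₀)).card
      with hstab
    have hsub_pos : 0 < subCopies H S₀ := by
      by_contra h
      have h0 : subCopies H S₀ = 0 := by omega
      rw [h0, zero_mul] at e1
      omega
    have hineq : 2 * (copies S₀ : ℝ) * p ^ S₀.edgeSet.ncard ≤ (subCopies H S₀ : ℝ) := by
      have e1R : (subCopies H S₀ : ℝ) * (stab : ℝ) = (T' S₀ : ℝ) := by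
        rw [e0]; exact_mod_cast e1
      have e2R : (copies S₀ : ℝ) * (stab : ℝ) = (n.factorial : ℝ) := by exact_mod_cast e2
      have hstR : (0:ℝ) < (stab : ℝ) := by exact_mod_cast hst
      have h12 : (2 * (copies S₀ : ℝ) * p ^ S₀.edgeSet.ncard) * (stab : ℝ) ≤
          (subCopies H S₀ : ℝ) * (stab : ℝ) := by
        rw [e1R]
        calc (2 * (copies S₀ : ℝ) * p ^ S₀.edgeSet.ncard) * (stab : ℝ)
            = 2 * ((copies S₀ : ℝ) * (stab : ℝ)) * p ^ S₀.edgeSet.ncard := by ring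
          _ = 2 * (n.factorial : ℝ) * p ^ S₀.edgeSet.ncard := by rw [e2R]
          _ ≤ (T' S₀ : ℝ) := hS₀
      exact le_of_mul_le_mul_right h12 hstR
    obtain ⟨G, hGH, σ, rfl⟩ : ∃ G, G ≤ H ∧
        ∃ σ : Equiv.Perm (Fin n), G = S₀.map σ.toEmbedding := by
      have hne : {G : SimpleGraph (Fin n) | G ≤ H ∧
          ∃ σ : Equiv.Perm (Fin n), G = S₀.map σ.toEmbedding}.Nonempty := by
        rw [← Set.ncard_pos (Set.toFinite _)]
        exact hsub_pos
      obtain ⟨G, hG⟩ := hne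
      exact ⟨G, hG.1, hG.2⟩
    have hb := hbound (p / K) (by positivity) hall (S₀.map σ.toEmbedding) hGH
    have hKp : K * (p / K) = p := by field_simp
    rw [subCopies_map, copies_map, ncard_edgeSet_map, hKp] at hb
    have hmin : (min 1 p) ^ S₀.edgeSet.ncard ≤ p ^ S₀.edgeSet.ncard :=
      pow_le_pow_left₀ (le_min zero_le_one hp) (min_le_right _ _) _
    have hc0 : (0:ℝ) ≤ (copies S₀ : ℝ) := by positivity
    have hpe : (0:ℝ) ≤ p ^ S₀.edgeSet.ncard := by positivity
    have h10 : (subCopies H S₀ : ℝ) ≤ (copies S₀ : ℝ) * p ^ S₀.edgeSet.ncard :=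
      le_trans hb (mul_le_mul_of_nonneg_left hmin hc0)
    have h11 : (1:ℝ) ≤ (subCopies H S₀ : ℝ) := by exact_mod_cast hsub_pos
    nlinarith

end Vale.Agent.Lib.P034
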